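import Vale.Agent.Lib.P066.Check4
import Vale.Agent.Lib.P066.Main

namespace Vale.Agent.Results.P066.A_parts4

open Polynomial Vale.Agent.Lib.P066

/-- For every natural unit interval graph, the chromatic quasisymmetric function in four variables
is a polynomial in `e_1, …, e_4` with coefficients in `ℕ[q]`, and every expansion of it in the
products `e_λ` has coefficients in `ℕ[q]` at the partitions with all parts at most four. -/
theorem result {n : ℕ} (G : Hess n) :
    (∃ p : MvPolynomial (Fin 4) ℕ[X],
      G.chi 4 = MvPolynomial.aeval (fun i : Fin 4 => MvPolynomial.esymm (Fin 4) ℤ[X] (i.val + 1))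
        (MvPolynomial.map (Polynomial.mapRingHom (Nat.castRingHom ℤ)) p)) ∧
    ∀ c : n.Partition → ℤ[X],
      (G.chi 4 = ∑ l, MvPolynomial.C (c l) * MvPolynomial.esymmPart (Fin 4) ℤ[X] l) →
      ∀ l : n.Partition, (∀ k ∈ l.parts, k ≤ 4) → ∀ i, 0 ≤ (c l).coeff i :=
  main_of_stable D4.stable D4.lv0_eq D4.eval0 G

end Vale.Agent.Results.P066.A_parts4
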