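import Vale.Agent.Results.P066.A0_clique3
import Vale.Agent.Results.P066.A_parts4

namespace Vale.Agent.Results.P066.A00_master

open Polynomial Vale.Agent.Lib.P066

/-- For every natural unit interval graph: (1) the chromatic quasisymmetric function in four
variables is a polynomial in `e_1, …, e_4` with coefficients in `ℕ[q]`, and every expansion of it
in the products `e_λ` has coefficients in `ℕ[q]` at the partitions with all parts at most four;
(2) if moreover `h i ≤ i + 2` for all `i` (clique number at most three), then in any number `N` of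
variables the chromatic quasisymmetric function is a polynomial in the elementary symmetric
polynomials with coefficients in `ℕ[q]`, and every expansion of it in `n` variables in the products
`e_λ`, `λ ⊢ n`, has coefficients in `ℕ[q]`. -/
theorem result {n : ℕ} (G : Hess n) :
    ((∃ p : MvPolynomial (Fin 4) ℕ[X],
      G.chi 4 = MvPolynomial.aeval (fun i : Fin 4 => MvPolynomial.esymm (Fin 4) ℤ[X] (i.val + 1))
        (MvPolynomial.map (Polynomial.mapRingHom (Nat.castRingHom ℤ)) p)) ∧
    ∀ c : n.Partition → ℤ[X],
      (G.chi 4 = ∑ l, MvPolynomial.C (c l) * MvPolynomial.esymmPart (Fin 4) ℤ[X] l) →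
      ∀ l : n.Partition, (∀ k ∈ l.parts, k ≤ 4) → ∀ i, 0 ≤ (c l).coeff i) ∧
    ((∀ i, (G.h i).val ≤ i.val + 2) →
    (∀ N : ℕ, ∃ p : MvPolynomial (Fin N) ℕ[X],
      G.chi N = MvPolynomial.aeval (fun i : Fin N => MvPolynomial.esymm (Fin N) ℤ[X] (i.val + 1))
        (MvPolynomial.map (Polynomial.mapRingHom (Nat.castRingHom ℤ)) p)) ∧
    ∀ c : n.Partition → ℤ[X],
      (G.chi n = ∑ l, MvPolynomial.C (c l) * MvPolynomial.esymmPart (Fin n) ℤ[X] l) →
      ∀ (l : n.Partition) (i : ℕ), 0 ≤ (c l).coeff i) :=
  ⟨Vale.Agent.Results.P066.A_parts4.result G, fun hG =>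
    Vale.Agent.Results.P066.A0_clique3.result G hG⟩

end Vale.Agent.Results.P066.A00_master
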