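import Vale.Agent.Lib.P066.K3.Final

namespace Vale.Agent.Results.P066.A0_clique3

open Polynomial Vale.Agent.Lib.P066

/-- For every natural unit interval graph with `h i ≤ i + 2` for all `i` (clique number at most
three), in any number `N` of variables the chromatic quasisymmetric function is a polynomial in
the elementary symmetric polynomials with coefficients in `ℕ[q]`, and every expansion of it in `n`
variables in the products `e_λ`, `λ ⊢ n`, has coefficients in `ℕ[q]`. -/
theorem result {n : ℕ} (G : Hess n) (hG : ∀ i, (G.h i).val ≤ i.val + 2) :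
    (∀ N : ℕ, ∃ p : MvPolynomial (Fin N) ℕ[X],
      G.chi N = MvPolynomial.aeval (fun i : Fin N => MvPolynomial.esymm (Fin N) ℤ[X] (i.val + 1))
        (MvPolynomial.map (Polynomial.mapRingHom (Nat.castRingHom ℤ)) p)) ∧
    ∀ c : n.Partition → ℤ[X],
      (G.chi n = ∑ l, MvPolynomial.C (c l) * MvPolynomial.esymmPart (Fin n) ℤ[X] l) →
      ∀ (l : n.Partition) (i : ℕ), 0 ≤ (c l).coeff i :=
  ⟨fun N => K3.main_poly N G hG, fun c hc l i => K3.main_coeff G hG c hc l i⟩

end Vale.Agent.Results.P066.A0_clique3
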